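import Mathlib

/-!
# Row 339, block F: Hilbert spaces from kernels

* `exists_of_kernel`: a positive semidefinite kernel is a Gram matrix of a total family;
* `exists_extend`: contractions prescribed on a total family;
* `posSemidef_series`: power series with nonnegative coefficients of a Gram kernel;
* `exists_embed`: a separable Hilbert space embeds isometrically in `ℓ²(ℕ)`.
-/

set_option autoImplicit false
open Complex Filter Topology
open scoped ComplexOrder ComplexConjugate

namespace Crest.Agent.R339.F

/-- the quadratic form of a kernel. -/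
noncomputable def qf {X : Type} (k : Matrix X X ℂ) (c : X →₀ ℂ) : ℂ :=
  c.sum fun i xi => c.sum fun j xj => star xi * k i j * xj

theorem inner_comb {X H : Type} [NormedAddCommGroup H] [InnerProductSpace ℂ H] (v : X → H)
    (c : X →₀ ℂ) :
    inner ℂ (Finsupp.linearCombination ℂ v c) (Finsupp.linearCombination ℂ v c) =
      qf (Matrix.gram ℂ v) c := by
  simp only [Finsupp.linearCombination_apply, Finsupp.sum, sum_inner, inner_sum, qf,
    inner_smul_left, inner_smul_right, Matrix.gram_apply, Finset.mul_sum]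
  rw [Finset.sum_comm]
  refine Finset.sum_congr rfl fun i _ => Finset.sum_congr rfl fun j _ => ?_
  simp only [RCLike.star_def]
  ring

theorem posSemidef_gram' {X H : Type} [NormedAddCommGroup H] [InnerProductSpace ℂ H] (v : X → H) :
    (Matrix.gram ℂ v).PosSemidef := by
  refine ⟨Matrix.isHermitian_gram _ _, fun c => ?_⟩
  have := inner_comb v c
  unfold qf at this
  rw [← this, inner_self_eq_norm_sq_to_K]
  positivity

theorem exists_of_kernel {X : Type} (k : Matrix X X ℂ) (hk : k.PosSemidef) :
    ∃ (H : Type) (_ : NormedAddCommGroup H) (_ : InnerProductSpace ℂ H) (_ : CompleteSpace H)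
      (v : X → H), (∀ x y, inner ℂ (v x) (v y) = k x y) ∧
        DenseRange (Finsupp.linearCombination ℂ v) := by
  let K : Matrix X X (ℂ →L[ℂ] ℂ) := fun x y => k x y • (1 : ℂ →L[ℂ] ℂ)
  have hK : K.PosSemidef := by
    have hiff := (RKHS.posSemidef_tfae (K := K)).out 0 2
    rw [hiff]
    refine ⟨?_, fun vv => ?_⟩
    · ext x y
      have := hk.1.apply x y
      simp only [K, Matrix.conjTranspose_apply, star_smul, star_one, this]
    · have h := hk.2 vv
      have h2 : (vv.sum fun x w ↦ vv.sum fun x' w' ↦ inner ℂ (K x' x w) w') =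
          vv.sum fun i xi ↦ vv.sum fun j xj ↦ star xi * k i j * xj := by
        refine Finsupp.sum_congr fun x _ => Finsupp.sum_congr fun x' _ => ?_
        have := hk.1.apply x x'
        simp only [K, smul_apply, one_apply_eq_self, smul_eq_mul,
          RCLike.inner_apply, map_mul, ← this, RCLike.star_def]
        ring
      rw [h2]
      exact (Complex.nonneg_iff.mp h).1
  have : Fact K.PosSemidef := ⟨hK⟩
  refine ⟨RKHS.OfKernel K, inferInstance, inferInstance, inferInstance,
    fun x => RKHS.kerFun (RKHS.OfKernel K) x 1, fun x y => ?_, ?_⟩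
  · rw [← RKHS.kernel_inner, RKHS.OfKernel.kernel_ofKernel]
    have := hk.1.apply x y
    simp only [K, smul_apply, one_apply_eq_self, smul_eq_mul,
      RCLike.inner_apply, map_mul, ← this, RCLike.star_def]
    simp
  · have h := RKHS.kerFun_dense (𝕜 := ℂ) (RKHS.OfKernel K)
    rw [← Submodule.dense_iff_topologicalClosure_eq_top] at h
    rw [DenseRange, ← LinearMap.coe_range, Finsupp.range_linearCombination]
    refine h.mono ?_
    refine SetLike.coe_subset_coe.mpr (Submodule.span_le.mpr ?_)
    rintro _ ⟨x, c, rfl⟩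
    have : RKHS.kerFun (RKHS.OfKernel K) x c = c • RKHS.kerFun (RKHS.OfKernel K) x 1 := by
      rw [← map_smul, smul_eq_mul, mul_one]
    rw [this]
    exact Submodule.smul_mem _ _ (Submodule.subset_span ⟨x, rfl⟩)

theorem exists_extend {X H H' : Type} [NormedAddCommGroup H] [InnerProductSpace ℂ H]
    [NormedAddCommGroup H'] [InnerProductSpace ℂ H'] [CompleteSpace H']
    (v : X → H) (hv : DenseRange (Finsupp.linearCombination ℂ v)) (w : X → H')
    (h : (Matrix.gram ℂ v - Matrix.gram ℂ w).PosSemidef) :
    ∃ T : H →L[ℂ] H', (∀ x, T (v x) = w x) ∧ ∀ y, ‖T y‖ ≤ ‖y‖ := by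
  have hn : ∀ c, ‖Finsupp.linearCombination ℂ w c‖ ≤ 1 * ‖Finsupp.linearCombination ℂ v c‖ := by
    intro c
    have h1 := h.2 c
    have h2 : (c.sum fun i xi ↦ c.sum fun j xj ↦
        star xi * (Matrix.gram ℂ v - Matrix.gram ℂ w) i j * xj) =
        qf (Matrix.gram ℂ v) c - qf (Matrix.gram ℂ w) c := by
      simp only [qf, Finsupp.sum, Matrix.sub_apply, ← Finset.sum_sub_distrib]
      refine Finset.sum_congr rfl fun i _ => Finset.sum_congr rfl fun j _ => ?_
      ring
    rw [h2, ← inner_comb, ← inner_comb, inner_self_eq_norm_sq_to_K,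
      inner_self_eq_norm_sq_to_K] at h1
    have h3 := (Complex.nonneg_iff.mp h1).1
    simp only [coe_algebraMap, ← Complex.ofReal_pow, ← Complex.ofReal_sub, Complex.ofReal_re] at h3
    rw [one_mul]
    exact (pow_le_pow_iff_left₀ (norm_nonneg _) (norm_nonneg _) two_ne_zero).mp (by linarith)
  refine ⟨(Finsupp.linearCombination ℂ w).extendOfNorm (Finsupp.linearCombination ℂ v),
    fun x => ?_, fun y => ?_⟩
  · have := LinearMap.extendOfNorm_eq hv ⟨1, hn⟩ (Finsupp.single x 1)
    simpa using this
  · simpa using LinearMap.norm_extendOfNorm_apply_le hv 1 hn y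

theorem exists_extend' {X H H' : Type} [NormedAddCommGroup H] [InnerProductSpace ℂ H]
    [NormedAddCommGroup H'] [InnerProductSpace ℂ H'] [CompleteSpace H']
    (v : X → H) (hv : DenseRange (Finsupp.linearCombination ℂ v)) (w : X → H')
    (h : ∀ x y, inner ℂ (w x) (w y) = inner ℂ (v x) (v y)) :
    ∃ T : H →L[ℂ] H', ∀ x, T (v x) = w x := by
  have : Matrix.gram ℂ v - Matrix.gram ℂ w = 0 := by
    ext x y
    simp [h]
  obtain ⟨T, hT, -⟩ := exists_extend v hv w (this ▸ Matrix.PosSemidef.zero)
  exact ⟨T, hT⟩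

theorem ext_total {X H H' : Type} [NormedAddCommGroup H] [InnerProductSpace ℂ H]
    [NormedAddCommGroup H'] [InnerProductSpace ℂ H']
    {v : X → H} (hv : DenseRange (Finsupp.linearCombination ℂ v)) {S T : H →L[ℂ] H'}
    (h : ∀ x, S (v x) = T (v x)) : S = T := by
  refine ContinuousLinearMap.ext_on (s := Set.range v) ?_ ?_
  · rw [← Finsupp.range_linearCombination, LinearMap.coe_range]
    exact hv
  · rintro _ ⟨x, rfl⟩
    exact h x

theorem eq_of_inner_total {X H : Type} [NormedAddCommGroup H] [InnerProductSpace ℂ H]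
    {v : X → H} (hv : DenseRange (Finsupp.linearCombination ℂ v)) {a b : H}
    (h : ∀ x, inner ℂ a (v x) = inner ℂ b (v x)) : a = b := by
  have : innerSL ℂ a = innerSL ℂ b := ext_total hv (by simpa using h)
  refine ext_inner_right ℂ fun y => ?_
  simpa using congrArg (fun T => T y) this

theorem star_eq_of_total {X H : Type} [NormedAddCommGroup H] [InnerProductSpace ℂ H]
    [CompleteSpace H] {v : X → H} (hv : DenseRange (Finsupp.linearCombination ℂ v))
    {S T : H →L[ℂ] H} (h : ∀ x y, inner ℂ (v x) (S (v y)) = inner ℂ (T (v x)) (v y)) :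
    star S = T := by
  refine ext_total hv fun x => eq_of_inner_total hv fun y => ?_
  rw [ContinuousLinearMap.star_eq_adjoint, ContinuousLinearMap.adjoint_inner_left, h]

theorem posSemidef_pow {X : Type} {G : Matrix X X ℂ} (hG : G.PosSemidef) (n : ℕ) :
    Matrix.PosSemidef (Matrix.of fun x y => G x y ^ n) := by
  induction n with
  | zero =>
    have := posSemidef_gram' (fun _ : X => (1 : ℂ))
    convert this using 1
    ext x y
    simp
  | succ n ih =>
    have h : (Matrix.of fun x y => G x y ^ (n + 1)) =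
        (Matrix.of fun x y => G x y ^ n).hadamard G := by
      ext x y
      simp [pow_succ]
    rw [h]
    exact ih.hadamard hG

theorem posSemidef_series {X : Type} {G : Matrix X X ℂ} (hG : G.PosSemidef) (a : ℕ → ℝ)
    (ha : ∀ n, 0 ≤ a n) (k : Matrix X X ℂ)
    (hk : ∀ x y, HasSum (fun n => (a n : ℂ) * G x y ^ n) (k x y)) : k.PosSemidef := by
  refine ⟨?_, fun c => ?_⟩
  · ext x y
    have h1 := (hk y x).star
    have h2 := hG.1.apply x y
    simp only [star_mul', star_pow, h2, RCLike.star_def, Complex.conj_ofReal] at h1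
    exact h1.unique (hk x y)
  · have h1 : HasSum (fun n => c.sum fun i xi ↦ c.sum fun j xj ↦
        star xi * ((a n : ℂ) * G i j ^ n) * xj)
        (c.sum fun i xi ↦ c.sum fun j xj ↦ star xi * k i j * xj) := by
      unfold Finsupp.sum
      exact hasSum_sum fun i _ => hasSum_sum fun j _ => ((hk i j).mul_left _).mul_right _
    refine h1.nonneg fun n => ?_
    have h2 := ((posSemidef_pow hG n).smul (a := (a n : ℂ)) (by exact_mod_cast ha n)).2 c
    simpa using h2

theorem posSemidef_conj {X : Type} {G : Matrix X X ℂ} (hG : G.PosSemidef) (d : X → ℂ) :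
    Matrix.PosSemidef (Matrix.of fun x y => conj (d x) * G x y * d y) := by
  have h : (Matrix.of fun x y => conj (d x) * G x y * d y) = G.hadamard (Matrix.gram ℂ d) := by
    ext x y
    simp only [Matrix.of_apply, Matrix.hadamard_apply, Matrix.gram_apply, RCLike.inner_apply]
    ring
  rw [h]
  exact hG.hadamard (posSemidef_gram' d)

theorem exists_embed (H : Type) [NormedAddCommGroup H] [InnerProductSpace ℂ H] [CompleteSpace H]
    [TopologicalSpace.SeparableSpace H] : Nonempty (H →ₗᵢ[ℂ] lp (fun _ : ℕ => ℂ) 2) := by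
  classical
  obtain ⟨w, b, hb⟩ := exists_hilbertBasis ℂ H
  have ho : Orthonormal ℂ ((↑) : w → H) := hb ▸ b.orthonormal
  have hc : w.Countable := by
    refine Set.PairwiseDisjoint.countable_of_isOpen (s := fun x : H => Metric.ball x (1 / 2))
      ?_ (fun _ _ => Metric.isOpen_ball) (fun x _ => Metric.nonempty_ball.mpr (by norm_num))
    intro x hx y hy hxy
    refine Metric.ball_disjoint_ball ?_
    have h1 : ‖x‖ = 1 := ho.1 ⟨x, hx⟩
    have h2 : ‖y‖ = 1 := ho.1 ⟨y, hy⟩
    have h3 : inner ℂ x y = 0 := ho.2 (i := ⟨x, hx⟩) (j := ⟨y, hy⟩) (by simpa using hxy)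
    have h4 := @norm_sub_sq ℂ _ _ _ _ x y
    rw [h1, h2, h3] at h4
    rw [dist_eq_norm]
    have h5 : (1 : ℝ) ^ 2 ≤ ‖x - y‖ ^ 2 := by
      rw [h4]; simp
    have := (pow_le_pow_iff_left₀ zero_le_one (norm_nonneg _) two_ne_zero).mp h5
    linarith
  have := hc.to_subtype
  obtain ⟨e, he⟩ := exists_injective_nat w
  let B : HilbertBasis ℕ ℂ (lp (fun _ : ℕ => ℂ) 2) := default
  have h1 : Orthonormal ℂ (B ∘ e) := B.orthonormal.comp e he
  exact ⟨h1.orthogonalFamily.linearIsometry.comp b.repr.toLinearIsometry⟩

theorem separable_of_total {X H : Type} [NormedAddCommGroup H] [InnerProductSpace ℂ H]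
    {v : X → H} (hv : DenseRange (Finsupp.linearCombination ℂ v))
    (hs : TopologicalSpace.IsSeparable (Set.range v)) : TopologicalSpace.SeparableSpace H := by
  rw [← TopologicalSpace.isSeparable_univ_iff]
  have h1 := (hs.span (R := ℂ)).closure
  rw [← Finsupp.range_linearCombination, LinearMap.coe_range, hv.closure_range] at h1
  exact h1

theorem separable_l2 : TopologicalSpace.SeparableSpace (lp (fun _ : ℕ => ℂ) 2) := by
  let B : HilbertBasis ℕ ℂ (lp (fun _ : ℕ => ℂ) 2) := default
  refine separable_of_total (v := B) ?_ (Set.countable_range _).isSeparable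
  rw [DenseRange, ← LinearMap.coe_range, Finsupp.range_linearCombination,
    Submodule.dense_iff_topologicalClosure_eq_top]
  exact B.dense_span

end Crest.Agent.R339.F
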