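import Crest.Agent.R339.Defs
import Crest.Agent.R339.F.Kern

/-!
# Row 339, block F: existence of the spin-boson model

`K` is the Hilbert space of the kernel `⟪Z^b W f Ω, Z^c W g Ω⟫ = δ_{bc} exp (⟪f,g⟫ - ‖f‖²/2 - ‖g‖²/2)`;
`ι` is the adjoint of the contraction `Z^b W g Ω ↦ δ_{b0} (-i) exp (-‖g‖²/2) g`.
-/

set_option autoImplicit false
set_option linter.unusedSectionVars false
open MeasureTheory ProbabilityTheory Complex Filter Topology
open scoped ComplexOrder ComplexConjugate

namespace Crest.Agent.R339.F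

variable {E : Type} [NormedAddCommGroup E] [InnerProductSpace ℂ E]

/-- `exp (-‖f‖²/2)`. -/
noncomputable def dd (f : E) : ℂ := cexp (-(inner ℂ f f / 2))
/-- `exp (-i Im ⟪f, g⟫)`. -/
noncomputable def ph (f g : E) : ℂ := cexp (-((inner ℂ f g - inner ℂ g f) / 2))
/-- overlap of coherent vectors. -/
noncomputable def om (f g : E) : ℂ := cexp (inner ℂ f g - inner ℂ f f / 2 - inner ℂ g g / 2)
/-- the kernel of the model. -/
noncomputable def kern : Matrix (Bool × E) (Bool × E) ℂ :=
  Matrix.of fun x y => if x.1 = y.1 then om x.2 y.2 else 0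
/-- the images of the generators under the one-particle projection. -/
noncomputable def rv (x : Bool × E) : E := if x.1 then 0 else (-I * dd x.2) • x.2

theorem dd_eq (f : E) : dd f = cexp (-((‖f‖ : ℂ) ^ 2 / 2)) := by
  rw [dd, inner_self_eq_norm_sq_to_K]; rfl

theorem dd_eq_real (f : E) : dd f = (Real.exp (-(‖f‖ ^ 2 / 2)) : ℝ) := by
  rw [dd_eq]; push_cast; rfl

theorem conj_dd (f : E) : conj (dd f) = dd f := by
  rw [dd_eq_real, Complex.conj_ofReal]

theorem ph_eq (f g : E) : ph f g = cexp (-(I * ((inner ℂ f g).im : ℂ))) := by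
  rw [ph, ← inner_conj_symm g f, Complex.sub_conj]
  congr 1
  push_cast
  ring

theorem conj_ph (f g : E) : conj (ph f g) = ph g f := by
  rw [ph, ph, ← Complex.exp_conj]
  congr 1
  simp only [map_neg, map_div₀, map_sub, inner_conj_symm, map_ofNat]

theorem om_eq (f g : E) : om f g = conj (dd f) * cexp (inner ℂ f g) * dd g := by
  rw [conj_dd, dd, dd, om, ← Complex.exp_add, ← Complex.exp_add]
  congr 1
  ring

theorem om_self (f : E) : om f f = 1 := by
  rw [om, ← Complex.exp_zero]
  congr 1
  ring

theorem om_zero_left (f : E) : om 0 f = dd f := by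
  simp [om, dd]

theorem om_zero_right (f : E) : om f 0 = dd f := by
  simp [om, dd]

theorem ph_om (h f g : E) : conj (ph h f) * (ph h g * om (h + f) (h + g)) = om f g := by
  rw [conj_ph, ph, ph, om, om, ← Complex.exp_add, ← Complex.exp_add]
  congr 1
  simp only [inner_add_left, inner_add_right]
  ring

theorem ph_om' (h f g : E) : ph h g * om f (h + g) = conj (ph (-h) f) * om (-h + f) g := by
  rw [conj_ph, ph, ph, om, om, ← Complex.exp_add, ← Complex.exp_add]
  congr 1
  simp only [inner_add_left, inner_add_right, inner_neg_left, inner_neg_right]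
  ring

theorem ph_ph (f g x : E) : ph g x * ph f (g + x) = ph f g * ph (f + g) x := by
  rw [ph, ph, ph, ph, ← Complex.exp_add, ← Complex.exp_add]
  congr 1
  simp only [inner_add_left, inner_add_right]
  ring

theorem ph_zero_left (f : E) : ph 0 f = 1 := by simp [ph]
theorem ph_zero_right (f : E) : ph f 0 = 1 := by simp [ph]

theorem psd_exp_sub :
    Matrix.PosSemidef (Matrix.of fun f g : E => cexp (inner ℂ f g) - inner ℂ f g) := by
  refine posSemidef_series (posSemidef_gram' (fun f : E => f))
    (fun n => if n = 1 then 0 else ((n.factorial : ℝ))⁻¹) (fun n => ?_) _ fun f g => ?_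
  · split_ifs
    · exact le_rfl
    · positivity
  · have h1 : HasSum (fun n : ℕ => (inner ℂ f g) ^ n / (n.factorial : ℂ)) (cexp (inner ℂ f g)) := by
      rw [Complex.exp_eq_exp_ℂ]
      exact NormedSpace.expSeries_div_hasSum_exp (inner ℂ f g)
    have h2 : HasSum (fun n : ℕ => if n = 1 then inner ℂ f g else 0) (inner ℂ f g) :=
      hasSum_ite_eq 1 _
    have h3 := h1.sub h2
    simp only [Matrix.of_apply, Matrix.gram_apply]
    refine h3.congr_fun fun n => ?_
    split_ifs with hn
    · simp [hn]
    · push_cast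
      ring

theorem psd_sub : (kern - Matrix.gram ℂ (rv (E := E))).PosSemidef := by
  have h1 : Matrix.PosSemidef ((1 : Matrix Bool Bool ℂ).submatrix
      (Prod.fst : Bool × E → Bool) Prod.fst) := Matrix.PosSemidef.one.submatrix _
  have h2 := (posSemidef_conj (psd_exp_sub (E := E)) dd).submatrix (Prod.snd : Bool × E → E)
  have h3 := posSemidef_gram' (fun x : Bool × E => if x.1 then dd x.2 • x.2 else 0)
  have h4 := (h1.hadamard h2).add h3
  have h : kern - Matrix.gram ℂ (rv (E := E)) =
      ((1 : Matrix Bool Bool ℂ).submatrix (Prod.fst : Bool × E → Bool) Prod.fst).hadamard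
        ((Matrix.of fun x y : E => conj (dd x) *
          (Matrix.of fun f g : E => cexp (inner ℂ f g) - inner ℂ f g) x y * dd y).submatrix
          (Prod.snd : Bool × E → E) Prod.snd) +
      Matrix.gram ℂ (fun x : Bool × E => if x.1 then dd x.2 • x.2 else 0) := by
    ext ⟨b, f⟩ ⟨c, g⟩
    cases b <;> cases c <;>
      simp [kern, rv, om_eq, inner_smul_left, inner_smul_right, conj_dd]
    · linear_combination (dd f * dd g * inner ℂ f g) * Complex.I_mul_I
    · ring
  rw [h]
  exact h4

theorem psd_kern : (kern (E := E)).PosSemidef := by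
  have := (psd_sub (E := E)).add (posSemidef_gram' rv)
  rwa [sub_add_cancel] at this

section build
variable {K : Type} [NormedAddCommGroup K] [InnerProductSpace ℂ K] [CompleteSpace K]
  {v : Bool × E → K}

theorem norm_v (hv : ∀ x y, inner ℂ (v x) (v y) = kern x y) (x : Bool × E) : ‖v x‖ = 1 := by
  have h := hv x x
  rw [inner_self_eq_norm_sq_to_K] at h
  simp only [kern, Matrix.of_apply, if_true, om_self, coe_algebraMap] at h
  have h2 : ‖v x‖ ^ 2 = 1 := by exact_mod_cast h
  exact (pow_eq_one_iff_of_nonneg (norm_nonneg _) two_ne_zero).mp h2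

theorem norm_v_sub (hv : ∀ x y, inner ℂ (v x) (v y) = kern x y) (b : Bool) (f g : E) :
    ‖v (b, f) - v (b, g)‖ ^ 2 = 2 - 2 * (om f g).re := by
  rw [@norm_sub_sq ℂ, norm_v hv, norm_v hv, hv]
  simp [kern]
  ring

theorem continuous_v (hv : ∀ x y, inner ℂ (v x) (v y) = kern x y) (b : Bool) :
    Continuous fun f => v (b, f) := by
  rw [continuous_iff_continuousAt]
  intro g
  rw [ContinuousAt, tendsto_iff_norm_sub_tendsto_zero]
  have h1 : Continuous fun f : E => Real.sqrt (2 - 2 * (om f g).re) := by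
    unfold om
    fun_prop
  have h2 := h1.tendsto g
  rw [om_self] at h2
  simp only [one_re, mul_one, sub_self, Real.sqrt_zero] at h2
  refine h2.congr fun f => ?_
  rw [← norm_v_sub hv b, Real.sqrt_sq (norm_nonneg _)]

theorem exists_iota [CompleteSpace E] (hv : ∀ x y, inner ℂ (v x) (v y) = kern x y)
    (hd : DenseRange (Finsupp.linearCombination ℂ v)) :
    ∃ ι : E →ₗᵢ[ℂ] K, ∀ f x, inner ℂ (ι f) (v x) = inner ℂ f (rv x) := by
  have hg : Matrix.gram ℂ v = kern := by
    ext x y
    simp [hv]
  obtain ⟨R, hR, hn⟩ := exists_extend v hd rv (hg ▸ psd_sub)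
  have hi : ∀ f x, inner ℂ (ContinuousLinearMap.adjoint R f) (v x) = inner ℂ f (rv x) := by
    intro f x
    rw [ContinuousLinearMap.adjoint_inner_left, hR]
  refine ⟨⟨(ContinuousLinearMap.adjoint R).toLinearMap, fun f => le_antisymm ?_ ?_⟩, hi⟩
  · have h1 : ‖R‖ ≤ 1 := R.opNorm_le_bound zero_le_one (by simpa using hn)
    have h2 := (ContinuousLinearMap.adjoint R).le_opNorm f
    rw [LinearIsometryEquiv.norm_map] at h2
    exact h2.trans (by simpa using mul_le_mul_of_nonneg_right h1 (norm_nonneg f))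
  · rcases eq_or_ne f 0 with rfl | hf
    · simp
    have hf' : 0 < ‖f‖ := norm_pos_iff.mpr hf
    change ‖f‖ ≤ ‖ContinuousLinearMap.adjoint R f‖
    set a := ‖ContinuousLinearMap.adjoint R f‖ with ha
    have key : ∀ t : ℝ, 0 < t → ‖f‖ * Real.exp (-((t * ‖f‖) ^ 2 / 2)) ≤ a := by
      intro t ht
      have hn1 : ‖(t : ℂ) • f‖ = t * ‖f‖ := by
        rw [norm_smul, Complex.norm_real, Real.norm_of_nonneg ht.le]
      have h1 : inner ℂ (ContinuousLinearMap.adjoint R f) (v (false, (t : ℂ) • f) - v (false, 0)) =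
          -I * ((t * ‖f‖ ^ 2 * Real.exp (-((t * ‖f‖) ^ 2 / 2)) : ℝ) : ℂ) := by
        rw [inner_sub_right, hi, hi]
        simp only [rv, Bool.false_eq_true, if_false, smul_zero, inner_zero_right, sub_zero,
          inner_smul_right, dd_eq_real, hn1, inner_self_eq_norm_sq_to_K, coe_algebraMap]
        push_cast
        ring
      have h2 : ‖v (false, (t : ℂ) • f) - v (false, 0)‖ ≤ t * ‖f‖ := by
        refine (pow_le_pow_iff_left₀ (norm_nonneg _) (by positivity) two_ne_zero).mp ?_
        rw [norm_v_sub hv, om_zero_right, dd_eq_real, hn1, Complex.ofReal_re]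
        have := Real.add_one_le_exp (-((t * ‖f‖) ^ 2 / 2))
        linarith
      have h3 := norm_inner_le_norm (𝕜 := ℂ) (ContinuousLinearMap.adjoint R f)
        (v (false, (t : ℂ) • f) - v (false, 0))
      rw [h1, norm_mul, norm_neg, Complex.norm_I, one_mul, Complex.norm_real,
        Real.norm_of_nonneg (by positivity)] at h3
      have h4 : t * ‖f‖ ^ 2 * Real.exp (-((t * ‖f‖) ^ 2 / 2)) ≤ a * (t * ‖f‖) :=
        h3.trans (mul_le_mul_of_nonneg_left h2 (norm_nonneg _))
      have h5 : 0 < t * ‖f‖ := by positivity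
      refine le_of_mul_le_mul_right ?_ h5
      calc _ = t * ‖f‖ ^ 2 * Real.exp (-((t * ‖f‖) ^ 2 / 2)) := by ring
        _ ≤ _ := h4
    have hc : Continuous fun t : ℝ => ‖f‖ * Real.exp (-((t * ‖f‖) ^ 2 / 2)) := by fun_prop
    have h1 := (hc.tendsto 0).mono_left (nhdsWithin_le_nhds (s := Set.Ioi 0))
    have h2 := le_of_tendsto h1 (eventually_nhdsWithin_of_forall fun t ht => key t ht)
    simpa using h2

theorem exists_model [CompleteSpace E] (hv : ∀ x y, inner ℂ (v x) (v y) = kern x y)
    (hd : DenseRange (Finsupp.linearCombination ℂ v)) : Nonempty (Model E K) := by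
  obtain ⟨ι, hι⟩ := exists_iota hv hd
  obtain ⟨Z, hZ⟩ := exists_extend' v hd (fun x => v (!x.1, x.2)) fun x y => by
    simp [hv, kern]
  obtain ⟨X, hX⟩ := exists_extend' v hd (fun x => (if x.1 then (-1 : ℂ) else 1) • v x)
    fun ⟨b, f⟩ ⟨c, g⟩ => by
      cases b <;> cases c <;> simp [hv, kern]
  have hW : ∀ h : E, ∃ T : K →L[ℂ] K, ∀ x, T (v x) = ph h x.2 • v (x.1, h + x.2) := fun h =>
    exists_extend' v hd _ fun x y => by
      rw [inner_smul_left, inner_smul_right, hv, hv]
      simp only [kern, Matrix.of_apply]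
      split_ifs
      · exact ph_om _ _ _
      · simp
  choose W hW using hW
  have hWΩ : ∀ f, W f (v (false, 0)) = v (false, f) := by
    intro f
    rw [hW]
    simp [ph_zero_right]
  have hXs : star X = X := star_eq_of_total hd fun ⟨b, f⟩ ⟨c, g⟩ => by
    cases b <;> cases c <;> simp [hX, hv, kern]
  refine ⟨{
    Ω := v (false, 0)
    Z := Z
    X := X
    W := W
    ι := ι
    Z_star := star_eq_of_total hd fun ⟨b, f⟩ ⟨c, g⟩ => by
      cases b <;> cases c <;> simp [hZ, hv, kern]
    X_star := hXs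
    Z_Z := ext_total hd fun x => by simp [hZ]
    X_X := ext_total hd fun ⟨b, f⟩ => by cases b <;> simp [hX]
    Z_X := ext_total hd fun ⟨b, f⟩ => by cases b <;> simp [hX, hZ]
    W_star := fun h => star_eq_of_total hd fun x y => by
      rw [hW, hW, inner_smul_left, inner_smul_right, hv, hv]
      simp only [kern, Matrix.of_apply]
      split_ifs
      · exact ph_om' _ _ _
      · simp
    W_zero := ext_total hd fun x => by simp [hW, ph_zero_left]
    W_mul := fun f g => ext_total hd fun x => by
      simp only [mul_apply_eq_comp, hW, map_smul, smul_apply, smul_smul, ← ph_eq,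
        ph_ph, add_assoc]
    Z_W := fun f => ext_total hd fun x => by simp [hW, hZ]
    X_W := fun f => ext_total hd fun ⟨b, g⟩ => by cases b <;> simp [hW, hX]
    X_Ω := by simp [hX]
    norm_Ω := norm_v hv _
    vac := fun f => by
      rw [hWΩ, hv]
      simp [kern, om_zero_left, dd_eq]
    dense := ?_
    X_ι := fun f => eq_of_inner_total hd fun ⟨b, g⟩ => ?_
    ι_W := fun f g => by
      rw [hWΩ, hι]
      simp only [rv, Bool.false_eq_true, if_false, inner_smul_right, dd_eq]
      ring }⟩
  · rw [← Submodule.dense_iff_topologicalClosure_eq_top]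
    have h := hd
    rw [DenseRange, ← LinearMap.coe_range, Finsupp.range_linearCombination] at h
    refine h.mono (SetLike.coe_subset_coe.mpr (Submodule.span_mono ?_))
    rintro _ ⟨⟨b, f⟩, rfl⟩
    cases b
    · exact Or.inl ⟨f, hWΩ f⟩
    · refine Or.inr ⟨f, ?_⟩
      simp [hWΩ, hZ]
  · rw [← ContinuousLinearMap.adjoint_inner_right, ← ContinuousLinearMap.star_eq_adjoint, hXs, hX]
    cases b <;> simp [hι, rv]

theorem separable_K [TopologicalSpace.SeparableSpace E]
    (hv : ∀ x y, inner ℂ (v x) (v y) = kern x y)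
    (hd : DenseRange (Finsupp.linearCombination ℂ v)) : TopologicalSpace.SeparableSpace K := by
  refine separable_of_total hd ?_
  have h : ∀ b, TopologicalSpace.IsSeparable (Set.range fun f => v (b, f)) := fun b =>
    TopologicalSpace.isSeparable_range (continuous_v hv b)
  refine ((h false).union (h true)).mono ?_
  rintro _ ⟨⟨b, f⟩, rfl⟩
  cases b
  · exact Or.inl ⟨f, rfl⟩
  · exact Or.inr ⟨f, rfl⟩

end build

end Crest.Agent.R339.F

namespace Crest.Agent.R339

/-- Block F: the spin-boson model exists. -/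
theorem fock : S_F := by
  obtain ⟨K, i1, i2, i3, v, hv, hd⟩ :=
    F.exists_of_kernel (F.kern (E := lp (fun _ : ℕ => ℂ) 2)) F.psd_kern
  have := F.separable_l2
  have := F.separable_K hv hd
  obtain ⟨M⟩ := F.exists_model hv hd
  have : Fact ((2 : ENNReal) ≠ ⊤) := ⟨by norm_num⟩
  exact ⟨lp (fun _ : ℕ => ℂ) 2, K, inferInstance, inferInstance, i1, i2, i3, M,
    F.exists_embed K, F.exists_embed _⟩

end Crest.Agent.R339
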